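import Vale.Agent.P032.S5.H287.Top
import Vale.Agent.P032.S5.H80.Ray

/-!
# P032: the top of the theorem on six colours, with the blocks as hypotheses

Frame `Irr U T` with the Suf form of `min` (notation `Mn U T`).
-/

open Set Filter Topology Metric

noncomputable section

namespace Vale.Agent.P032.Six

variable {U : Fin 6 → Set ℂ} {T : ℂ → Set (Fin 6)}

/-- all palettes with at least four colours are minimal sufficient -/
def Mn (U : Fin 6 → Set ℂ) (T : ℂ → Set (Fin 6)) : Prop :=
  ∀ z, 4 ≤ (T z).ncard → ∀ s, s ⊆ T z → s ≠ T z →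
    ¬ ∀ᶠ w in 𝓝 z, ∃ i ∈ s, w ∈ U i ∨ (w ∈ XX U ∧ i ∈ Pal U w)

/-- two harmless points at distance one with the same complementary pair -/
def NoStar (T : ℂ → Set (Fin 6)) : Prop :=
  ∀ z A z' A', Harm T z A → Harm T z' A' → dist z z' = 1 → T z \ A ≠ T z' \ A'

/-- all points with at least four colours are harmless -/
def AllHarm (T : ℂ → Set (Fin 6)) : Prop := ∀ z, 4 ≤ (T z).ncard → ∃ A, Harm T z A

/-- **Assembly at one point**, no assumption on the unit circle. -/
theorem Irr.harm_of_noD (h : Irr U T) (hmin : Mn U T) {z : ℂ} (hz : (T z).ncard = 4)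
    (hM : ∃ y, dist y z = 1 ∧ T y ⊆ T z) (hD : ∀ a b c d, DPt T z a b c d → False) :
    ∃ A, Harm T z A := by
  refine h.harm_of_MM hz hM fun P hP Q hQ => ?_
  obtain ⟨hPz, hP2, p, hp, hpJ⟩ := hP
  obtain ⟨hQz, hQ2, q, hq, hqJ⟩ := hQ
  have hPp : T p = P := hpJ.self_of_nhdsWithin hp
  have hQq : T q = Q := hqJ.self_of_nhdsWithin hq
  by_contra hne
  rcases h.pairs_disjoint hmin hz hp hq (by rw [hPp]; exact hPz) (by rw [hQq]; exact hQz)
    (by rw [hPp]; exact hP2) (by rw [hQq]; exact hQ2) with heq | hdis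
  · exact hne (by rw [← hPp, ← hQq, heq])
  · rw [hPp, hQq] at hdis
    have hU : P ∪ Q = T z := Set.eq_of_subset_of_ncard_le (union_subset hPz hQz) (by
      rw [Set.ncard_union_eq hdis (Set.toFinite _) (Set.toFinite _), hP2, hQ2, hz])
      (Set.toFinite _)
    obtain ⟨a, b, hab, rfl⟩ := Set.ncard_eq_two.1 hP2
    obtain ⟨c, d, hcd, rfl⟩ := Set.ncard_eq_two.1 hQ2
    have hd := Set.disjoint_left.1 hdis
    refine hD a b c d ⟨?_, ?_, ?_, ?_, ?_, hab, hcd, ⟨p, hp, hpJ⟩, ⟨q, hq, hqJ⟩⟩
    · rw [← hU]; ext i; simp only [mem_union, mem_insert_iff, mem_singleton_iff]; tauto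
    · rintro rfl; exact hd (a := a) (by simp) (by simp)
    · rintro rfl; exact hd (a := a) (by simp) (by simp)
    · rintro rfl; exact hd (a := b) (by simp) (by simp)
    · rintro rfl; exact hd (a := b) (by simp) (by simp)

/-- **Top of the six colour theorem.** The blocks: `h6`, `h5` (no points with six, five colours),
`hM` (some point of the unit circle has its palette inside), `hD` (no `D`-point), `hS` (no
`D`-star), `hC` (the carrier theorem with unit pairs of harmless points). -/
theorem Irr.core7_of (h : Irr U T) (hmin : Mn U T)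
    (h6 : ∀ z, (T z).ncard ≠ 6)
    (h5 : (∀ z, (T z).ncard ≤ 5) → ∀ z, (T z).ncard ≠ 5)
    (hM : (∀ z, (T z).ncard ≤ 4) → ∀ z, (T z).ncard = 4 → ∃ y, dist y z = 1 ∧ T y ⊆ T z)
    (hD : (∀ z, (T z).ncard ≤ 4) → ∀ z a b c d, DPt T z a b c d → False)
    (hS : (∀ z, (T z).ncard ≤ 4) → AllHarm T → NoStar T)
    (hC : AllHarm T → NoStar T → False) : False := by
  have h6' : ∀ z, (T z).ncard ≤ 6 := by
    intro z
    have := Set.ncard_le_ncard (s := T z) (t := univ) (subset_univ _) (Set.toFinite _)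
    rwa [Set.ncard_univ, Nat.card_eq_fintype_card, Fintype.card_fin] at this
  have h5' : ∀ z, (T z).ncard ≤ 5 := fun z => by
    have := h6' z; have := h6 z; omega
  have h4' : ∀ z, (T z).ncard ≤ 4 := fun z => by
    have := h5' z; have := h5 h5' z; omega
  have hA : AllHarm T := fun z hz => by
    have hz4 : (T z).ncard = 4 := le_antisymm (h4' z) hz
    exact h.harm_of_noD hmin hz4 (hM h4' z hz4) (hD h4' z)
  exact hC hA (hS h4' hA)

/-- **Top of the six colour theorem**, second form: no unit pair with a point of at least five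
colours, and the clean theorems for five and six colours. -/
theorem Irr.core7_of' (h : Irr U T) (hmin : Mn U T)
    (hU : ∀ z v, 5 ≤ (T z).ncard → 4 ≤ (T v).ncard → dist z v ≠ 1)
    (h5 : ∀ z, (T z).ncard = 5 → (∀ y, dist y z = 1 → (T y).ncard ≤ 3) → False)
    (h6 : ∀ z, (T z).ncard = 6 → (∀ y, dist y z = 1 → (T y).ncard ≤ 3) → False)
    (hM : (∀ z, (T z).ncard ≤ 4) → ∀ z, (T z).ncard = 4 → ∃ y, dist y z = 1 ∧ T y ⊆ T z)
    (hD : (∀ z, (T z).ncard ≤ 4) → ∀ z a b c d, DPt T z a b c d → False)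
    (hS : (∀ z, (T z).ncard ≤ 4) → AllHarm T → NoStar T)
    (hC : AllHarm T → NoStar T → False) : False := by
  have key : ∀ z, 5 ≤ (T z).ncard → ∀ y, dist y z = 1 → (T y).ncard ≤ 3 := by
    intro z hz y hy
    by_contra hcon
    exact hU z y hz (by omega) (by rw [dist_comm]; exact hy)
  refine h.core7_of hmin (fun z hz => h6 z hz (key z (by omega)))
    (fun _ z hz => h5 z hz (key z (by omega))) hM hD hS hC

end Vale.Agent.P032.Six
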