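import Vale.Agent.P032.S5.H11.Core4
import Vale.Agent.P032.S5.H920.NoDStar

/-!
# P032: the core theorem with clean points of more than four colours and clean two-pair points

Frame `Irr U T` with the Suf form of `min`.  `Irr.coreD_of` : points with at least five colours and
two-pair points have clean unit circles; there are no clean points with five and six colours; the
carrier theorem `hC`; then the frame is impossible.
-/

open Set Filter Topology Metric

noncomputable section

namespace Vale.Agent.P032.Six

variable {U : Fin 6 → Set ℂ} {T : ℂ → Set (Fin 6)}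

/-- **Core theorem**: clean circles of all points with at least five colours and of all two-pair
points, no point with more than four colours. -/
theorem Irr.coreD_four (h : Irr U T) (hmin : Mn U T) (h4 : ∀ z, (T z).ncard ≤ 4)
    (hU : ∀ z v, dist z v = 1 → 4 ≤ (T v).ncard →
      (5 ≤ (T z).ncard ∨ ∃ a b c d, DPt T z a b c d) → False)
    (hC : AllHarm T → NoStar T → False) : False := by
  obtain ⟨z, a, b, c, d, hz, y, hy, hy4⟩ :=
    h.exists_dpair hmin h4 (fun hA => h.noStar hmin h4 hA) hC
  exact hU z y (by rw [dist_comm]; exact hy) hy4.ge (Or.inr ⟨a, b, c, d, hz⟩)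

/-- **Core theorem**, with the theorems on clean points of five and six colours as hypotheses -/
theorem Irr.coreD_of (h : Irr U T) (hmin : Mn U T)
    (hU : ∀ z v, dist z v = 1 → 4 ≤ (T v).ncard →
      (5 ≤ (T z).ncard ∨ ∃ a b c d, DPt T z a b c d) → False)
    (h6 : ∀ z, (T z).ncard = 6 → (∀ y, dist y z = 1 → (T y).ncard ≤ 3) → False)
    (h5 : (∀ z, (T z).ncard ≤ 5) → ∀ z, (T z).ncard = 5 →
      (∀ y, dist y z = 1 → (T y).ncard ≤ 3) → False)
    (hC : AllHarm T → NoStar T → False) : False := by
  have hcl : ∀ z, 5 ≤ (T z).ncard → ∀ y, dist y z = 1 → (T y).ncard ≤ 3 := by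
    intro z hz y hy
    by_contra hcon
    exact hU z y (by rw [dist_comm]; exact hy) (by omega) (Or.inl hz)
  have h6' : ∀ z, (T z).ncard ≤ 5 := by
    intro z
    have h1 := Set.ncard_le_ncard (s := T z) (t := univ) (subset_univ _) (Set.toFinite _)
    rw [Set.ncard_univ, Nat.card_eq_fintype_card, Fintype.card_fin] at h1
    by_contra hcon
    exact h6 z (by omega) (hcl z (by omega))
  have h4 : ∀ z, (T z).ncard ≤ 4 := by
    intro z
    have h1 := h6' z
    by_contra hcon
    exact h5 h6' z (by omega) (hcl z (by omega))
  exact h.coreD_four hmin h4 hU hC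

end Vale.Agent.P032.Six
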