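import Vale.Agent.P032.S5.H843.FrameN
import Vale.Agent.P032.S5.H843.Core7

/-!
# P032: unit pairs with a two-pair point or a point near which no four of the sets suffice

`exists_pairD_of` : the statement in the plane for maximal families, from a theorem on irredundant
covers `Irr V T`.
-/

open Set Filter Topology Metric

noncomputable section

namespace Vale.Agent.P032.S5.H843

open Vale.Agent.P032.Six Vale.Agent.P032.S5.H926

/-- near `x` four of the sets suffice, and no three of these four, and at distance one from `x`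
there are a common boundary point of two of them near which these two suffice, and the same for the
other two -/
def DU {E : Type*} [PseudoMetricSpace E] (U : Fin 6 → Set E) (x : E) : Prop :=
  ∃ a b c d : Fin 6, [a, b, c, d].Nodup ∧
    x ∉ closure ((⋃ j, U j) \ ⋃ i ∈ ({a, b, c, d} : Set (Fin 6)), U i) ∧
    (∀ s ⊂ ({a, b, c, d} : Set (Fin 6)), x ∈ closure ((⋃ j, U j) \ ⋃ i ∈ s, U i)) ∧
    ∃ p q, dist p x = 1 ∧ dist q x = 1 ∧
      p ∈ closure (U a) ∧ p ∈ closure (U b) ∧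
      p ∉ closure ((⋃ j, U j) \ ⋃ i ∈ ({a, b} : Set (Fin 6)), U i) ∧
      q ∈ closure (U c) ∧ q ∈ closure (U d) ∧
      q ∉ closure ((⋃ j, U j) \ ⋃ i ∈ ({c, d} : Set (Fin 6)), U i)

/-- the palette of a point suffices near it -/
theorem Irr_suff {U : Fin 6 → Set ℂ} {T : ℂ → Set (Fin 6)} (h : Irr U T) (x : ℂ) :
    x ∉ closure ((⋃ j, U j) \ ⋃ i ∈ T x, U i) := by
  rw [mem_closure_iff_frequently, not_frequently]
  filter_upwards [h.nhd x] with w hw hwW
  obtain ⟨i, hi⟩ := h.ne w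
  have h1 : w ∉ XX U := by
    obtain ⟨j, hj⟩ := mem_iUnion.1 hwW.1
    intro hX
    simp only [XX] at hX
    exact hX j hj
  exact hwW.2 (mem_iUnion₂.2 ⟨i, hw hi, h.off w h1 i hi⟩)

theorem DU_of_DPt {U : Fin 6 → Set ℂ} {T : ℂ → Set (Fin 6)} (h : Irr U T) (hmin : Mn U T)
    (hd : Dense (⋃ i, U i)) {z : ℂ} {a b c d : Fin 6} (hz : DPt T z a b c d) : DU U z := by
  have h4 : 4 ≤ (T z).ncard := by
    rw [hz.pal, Set.ncard_eq_toFinset_card']
    have h7 : (({a, b, c, d} : Set (Fin 6)).toFinset) = ({a, b, c, d} : Finset (Fin 6)) := by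
      ext i; simp
    rw [h7]
    rw [Finset.card_insert_of_notMem (by simp [hz.ab, hz.ac, hz.ad]),
      Finset.card_insert_of_notMem (by simp [hz.bc, hz.bd]),
      Finset.card_insert_of_notMem (by simp [hz.cd]), Finset.card_singleton]
  obtain ⟨p, hp1, hp2⟩ := hz.arc1
  obtain ⟨q, hq1, hq2⟩ := hz.arc2
  have hp3 : T p = {a, b} := hp2.self_of_nhdsWithin hp1
  have hq3 : T q = {c, d} := hq2.self_of_nhdsWithin hq1
  refine ⟨a, b, c, d, ?_, ?_, ?_, p, q, hp1, hq1, ?_, ?_, ?_, ?_, ?_, ?_⟩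
  · simp [hz.ab, hz.ac, hz.ad, hz.bc, hz.bd, hz.cd]
  · rw [← hz.pal]; exact Irr_suff h z
  · intro s hs
    rw [← hz.pal] at hs
    by_contra hcon
    exact hmin z h4 s hs.subset hs.ne (suf_of_notMem hd hcon)
  · exact h.sub p (by rw [hp3]; simp)
  · exact h.sub p (by rw [hp3]; simp)
  · rw [← hp3]; exact Irr_suff h p
  · exact h.sub q (by rw [hq3]; simp)
  · exact h.sub q (by rw [hq3]; simp)
  · rw [← hq3]; exact Irr_suff h q

/-- points near which no `n` of the sets suffice -/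
def XU {E : Type*} [PseudoMetricSpace E] (U : Fin 6 → Set E) (n : ℕ) : Set E :=
  {z | ∀ s : Set (Fin 6), s.ncard ≤ n → z ∈ closure ((⋃ j, U j) \ ⋃ i ∈ s, U i)}

theorem isClosed_XU {E : Type*} [PseudoMetricSpace E] (U : Fin 6 → Set E) (n : ℕ) :
    IsClosed (XU U n) := by
  have : XU U n = ⋂ s : {s : Set (Fin 6) // s.ncard ≤ n},
      closure ((⋃ j, U j) \ ⋃ i ∈ (s : Set (Fin 6)), U i) := by
    ext z; simp [XU]
  rw [this]
  exact isClosed_iInter fun s => isClosed_closure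

theorem XU_anti {E : Type*} [PseudoMetricSpace E] (U : Fin 6 → Set E) {n n' : ℕ} (hn : n ≤ n') :
    XU U n' ⊆ XU U n := fun _ hz s hs => hz s (hs.trans hn)

/-- **The frame.** -/
theorem exists_T_pairD {U : Fin 6 → Set ℂ}
    (hU : ∀ i, Maximal (fun W : Set ℂ => IsOpen W ∧ ∀ x ∈ W, ∀ y ∈ W, dist x y ≠ 1) (U i))
    (hd : Dense (⋃ i, U i)) {m : ℕ} (hm : 4 ≤ m) (h4 : ∀ z, z ∉ XU U m)
    (hp : ∀ z ∈ XU U 3, z ∈ XU U 4 ∨ z ∈ closure {x | DU U x} → ∀ v ∈ XU U 3, dist z v ≠ 1) :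
    ∃ T, Irr U T ∧ Mn U T ∧ (∀ z, (T z).ncard ≤ m) ∧
      ∀ z v, dist z v = 1 → 4 ≤ (T v).ncard →
        (5 ≤ (T z).ncard ∨ ∃ a b c d, DPt T z a b c d) → False := by
  classical
  set K : Set ℂ := XU U 3 ∩ (XU U 4 ∪ closure {x | DU U x}) with hK
  have hKc : IsClosed K := (isClosed_XU U 3).inter ((isClosed_XU U 4).union isClosed_closure)
  obtain ⟨N₅, V, hN₅, hV, hKN, hXV, hfree⟩ := exists_open_free₂ hKc (isClosed_XU U 3)
    (fun z hz v hv => hp z hz.1 hz.2 v hv)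
  set V' : Set ℂ := V ∩ (closure {x | DU U x} ∩ N₅ᶜ)ᶜ with hV'
  have hV'o : IsOpen V' := hV.inter (isClosed_closure.inter hN₅.isClosed_compl).isOpen_compl
  have hXV' : XU U 3 ⊆ V' := fun x hx => ⟨hXV hx, fun h1 => h1.2 (hKN ⟨hx, Or.inr h1.1⟩)⟩
  have hX4 : XU U 4 ⊆ N₅ := fun x hx => hKN ⟨XU_anti U (by norm_num) hx, Or.inl hx⟩
  set N : ℂ → ℕ := fun x => if x ∈ V' then (if x ∈ N₅ then m else 4) else 3 with hNdef
  have hNs : ∀ x, ∀ᶠ w in 𝓝 x, N x ≤ N w := by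
    intro x
    by_cases hx : x ∈ V'
    · by_cases hx5 : x ∈ N₅
      · filter_upwards [hV'o.mem_nhds hx, hN₅.mem_nhds hx5] with w hw hw5
        simp only [hNdef, if_pos hx, if_pos hx5, if_pos hw, if_pos hw5, le_refl]
      · filter_upwards [hV'o.mem_nhds hx] with w hw
        simp only [hNdef, if_pos hx, if_neg hx5, if_pos hw]
        split_ifs <;> omega
    · filter_upwards with w
      simp only [hNdef, if_neg hx]
      split_ifs <;> omega
  have hN3 : ∀ x, 3 ≤ N x := by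
    intro x
    simp only [hNdef]
    split_ifs <;> omega
  have hex : ∀ n z, z ∉ XU U n → ∃ s : Set (Fin 6), s.ncard ≤ n ∧
      ∀ᶠ w in 𝓝 z, ∃ i ∈ s, w ∈ U i ∨ (w ∈ XX U ∧ i ∈ Pal U w) := by
    intro n z hz
    simp only [XU, mem_ofPred_eq] at hz
    push Not at hz
    obtain ⟨s, hs, hsz⟩ := hz
    exact ⟨s, hs, suf_of_notMem hd hsz⟩
  obtain ⟨T, hT, hmin, hle⟩ := exists_frameN (Mx_of_maximal hU hd)
    (fun i x hx => (mem_iff_of_maximal (hU i) x).2 hx) hNs hN3 (fun z _ => by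
      by_cases hz : z ∈ V'
      · by_cases hz5 : z ∈ N₅
        · obtain ⟨s, h1, h2⟩ := hex m z (h4 z)
          exact ⟨s, by simpa only [hNdef, if_pos hz, if_pos hz5] using h1, h2⟩
        · obtain ⟨s, h1, h2⟩ := hex 4 z fun h => hz5 (hX4 h)
          exact ⟨s, by simpa only [hNdef, if_pos hz, if_neg hz5] using h1, h2⟩
      · obtain ⟨s, h1, h2⟩ := hex 3 z fun h => hz (hXV' h)
        exact ⟨s, by simpa only [hNdef, if_neg hz] using h1, h2⟩)
  have hV4 : ∀ v, 4 ≤ (T v).ncard → v ∈ V' := by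
    intro v hv
    by_contra hcon
    have h1 := hle v
    simp only [hNdef, if_neg hcon] at h1
    omega
  refine ⟨T, hT, hmin, fun z => (hle z).trans ?_, fun z v hzv hv hz => ?_⟩
  · simp only [hNdef]
    split_ifs <;> omega
  · refine hfree z ?_ v (hV4 v hv).1 hzv
    rcases hz with h5 | ⟨a, b, c, d, hz⟩
    · by_contra hcon
      have h1 := hle z
      simp only [hNdef, if_neg hcon] at h1
      split_ifs at h1 <;> omega
    · have h6 : z ∈ V' := hV4 z (by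
        rw [hz.pal, Set.ncard_eq_toFinset_card']
        have h7 : (({a, b, c, d} : Set (Fin 6)).toFinset) = ({a, b, c, d} : Finset (Fin 6)) := by
          ext i; simp
        rw [h7]
        rw [Finset.card_insert_of_notMem (by simp [hz.ab, hz.ac, hz.ad]),
          Finset.card_insert_of_notMem (by simp [hz.bc, hz.bd]),
          Finset.card_insert_of_notMem (by simp [hz.cd]), Finset.card_singleton])
      by_contra hcon
      exact h6.2 ⟨subset_closure (DU_of_DPt hT hmin hd hz), hcon⟩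

/-- **Statement in the plane.** -/
theorem exists_pairD_of {m : ℕ} (hm : 4 ≤ m) {U : Fin 6 → Set (EuclideanSpace ℝ (Fin 2))}
    (hU : ∀ i, Maximal (fun W : Set (EuclideanSpace ℝ (Fin 2)) =>
      IsOpen W ∧ ∀ x ∈ W, ∀ y ∈ W, dist x y ≠ 1) (U i))
    (hd : Dense (⋃ i, U i))
    (top : ∀ (V : Fin 6 → Set ℂ) (T : ℂ → Set (Fin 6)), Irr V T → Mn V T →
      (∀ z, (T z).ncard ≤ m) →
      (∀ z v, dist z v = 1 → 4 ≤ (T v).ncard →
        (5 ≤ (T z).ncard ∨ ∃ a b c d, DPt T z a b c d) → False) → False) :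
    (∃ z, z ∈ XU U m) ∨
    ∃ z z', dist z z' = 1 ∧ z ∈ XU U 3 ∧ z' ∈ XU U 3 ∧
      (z ∈ XU U 4 ∨ z ∈ closure {x | DU U x}) := by
  by_contra hcon
  rw [not_or] at hcon
  let φ : ℂ ≃ₗᵢ[ℝ] EuclideanSpace ℝ (Fin 2) := Complex.orthonormalBasisOneI.repr
  have hcl : ∀ S : Set (EuclideanSpace ℝ (Fin 2)), closure (φ ⁻¹' S) = φ ⁻¹' closure S :=
    fun S => (φ.toHomeomorph.preimage_closure S).symm
  have hdf : ∀ s : Set (Fin 6), ((⋃ j, φ ⁻¹' U j) \ ⋃ i ∈ s, φ ⁻¹' U i) =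
      φ ⁻¹' ((⋃ j, U j) \ ⋃ i ∈ s, U i) := by
    intro s
    rw [preimage_sdiff, preimage_iUnion, preimage_iUnion₂]
  have hX : ∀ n z, z ∈ XU (fun i => φ ⁻¹' U i) n → φ z ∈ XU U n := by
    intro n z hz s hs
    have h1 := hz s hs
    rw [hdf, hcl] at h1
    exact h1
  have hDU : ∀ x, DU (fun i => φ ⁻¹' U i) x → DU U (φ x) := by
    rintro x ⟨a, b, c, d, nd, hx, hs, p, q, hp, hq, h1, h2, h3, h4, h5, h6⟩
    rw [hdf, hcl] at hx h3 h6
    rw [hcl] at h1 h2 h4 h5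
    refine ⟨a, b, c, d, nd, hx, fun s hs' => ?_, φ p, φ q, by rw [φ.dist_map]; exact hp,
      by rw [φ.dist_map]; exact hq, h1, h2, h3, h4, h5, h6⟩
    have h7 := hs s hs'
    rw [hdf, hcl] at h7
    exact h7
  have hcD : ∀ z, z ∈ closure {x | DU (fun i => φ ⁻¹' U i) x} → φ z ∈ closure {x | DU U x} := by
    intro z hz
    have h1 : z ∈ closure (φ ⁻¹' {x | DU U x}) := closure_mono (fun x hx => hDU x hx) hz
    rw [hcl] at h1
    exact h1
  obtain ⟨T, h1, h2, h3, h4⟩ := exists_T_pairD (U := fun i => φ ⁻¹' U i)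
    (fun i => maximal_preimage (hU i) φ) (by
      rw [← preimage_iUnion]
      exact hd.preimage φ.toHomeomorph.isOpenMap) hm
    (fun z hz => hcon.1 ⟨φ z, hX m z hz⟩)
    (fun z hz hz' v hv hzv => hcon.2 ⟨φ z, φ v, by rw [φ.dist_map]; exact hzv, hX 3 z hz,
      hX 3 v hv, hz'.imp (hX 4 z) (hcD z)⟩)
  exact top _ T h1 h2 h3 h4

end Vale.Agent.P032.S5.H843
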