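import Vale.Agent.P032.S5.H843.PairD
import Vale.Agent.P032.S5.H843.CoreD
import Vale.Agent.P032.S5.H11.TopD

/-!
# P032: the statements in the plane with the theorems on clean points of five and six colours as
hypotheses
-/

open Set Filter Topology Metric

noncomputable section

namespace Vale.Agent.P032.S5.H843

open Vale.Agent.P032.Six Vale.Agent.P032.S5.H926

/-- clean points with five colours are impossible, in the world where two-pair points are clean -/
def NoFive : Prop :=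
  ∀ (U : Fin 6 → Set ℂ) (T : ℂ → Set (Fin 6)), Irr U T → Mn U T →
    (∀ z v, dist z v = 1 → 4 ≤ (T v).ncard → (∃ a b c d, DPt T z a b c d) → False) →
    ∀ z, (T z).ncard = 5 → (∀ y, dist y z = 1 → (T y).ncard ≤ 3) → False

/-- clean points with six colours are impossible, in the world where two-pair points and points
with five colours are clean -/
def NoSix : Prop :=
  ∀ (U : Fin 6 → Set ℂ) (T : ℂ → Set (Fin 6)), Irr U T → Mn U T →
    (∀ z v, dist z v = 1 → 4 ≤ (T v).ncard →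
      (5 ≤ (T z).ncard ∨ ∃ a b c d, DPt T z a b c d) → False) →
    (∀ z, (T z).ncard ≠ 5) →
    ∀ z, (T z).ncard = 6 → (∀ y, dist y z = 1 → (T y).ncard ≤ 3) → False

theorem no5_of (H : NoFive) {U : Fin 6 → Set ℂ} {T : ℂ → Set (Fin 6)} (h : Irr U T)
    (hmin : Mn U T)
    (hU : ∀ z v, dist z v = 1 → 4 ≤ (T v).ncard →
      (5 ≤ (T z).ncard ∨ ∃ a b c d, DPt T z a b c d) → False) (z : ℂ) : (T z).ncard ≠ 5 := by
  intro hz
  refine H U T h hmin (fun z v h1 h2 h3 => hU z v h1 h2 (Or.inr h3)) z hz fun y hy => ?_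
  by_contra hcon
  exact hU z y (by rw [dist_comm]; exact hy) (by omega) (Or.inl hz.ge)

theorem core5 (H : NoFive) {U : Fin 6 → Set ℂ} {T : ℂ → Set (Fin 6)} (h : Irr U T)
    (hmin : Mn U T) (h5 : ∀ z, (T z).ncard ≤ 5)
    (hU : ∀ z v, dist z v = 1 → 4 ≤ (T v).ncard →
      (5 ≤ (T z).ncard ∨ ∃ a b c d, DPt T z a b c d) → False) : False := by
  refine h.coreD_four' hmin (fun z => ?_) hU
  have h1 := h5 z
  have h2 := no5_of H h hmin hU z
  omega

theorem core6 (H : NoFive) (H6 : NoSix) {U : Fin 6 → Set ℂ} {T : ℂ → Set (Fin 6)} (h : Irr U T)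
    (hmin : Mn U T)
    (hU : ∀ z v, dist z v = 1 → 4 ≤ (T v).ncard →
      (5 ≤ (T z).ncard ∨ ∃ a b c d, DPt T z a b c d) → False) : False := by
  have hn := no5_of H h hmin hU
  refine core5 H h hmin (fun z => ?_) hU
  have h1 := Set.ncard_le_ncard (s := T z) (t := univ) (subset_univ _) (Set.toFinite _)
  rw [Set.ncard_univ, Nat.card_eq_fintype_card, Fintype.card_fin] at h1
  by_contra hcon
  refine H6 U T h hmin hU hn z (by omega) fun y hy => ?_
  by_contra hcon'
  exact hU z y (by rw [dist_comm]; exact hy) (by omega) (Or.inl (by omega))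

/-- order bound five -/
theorem pair5 (H : NoFive) {U : Fin 6 → Set (EuclideanSpace ℝ (Fin 2))} (hd : Dense (⋃ i, U i))
    (hU : ∀ i, Maximal (fun W : Set (EuclideanSpace ℝ (Fin 2)) =>
      IsOpen W ∧ ∀ x ∈ W, ∀ y ∈ W, dist x y ≠ 1) (U i)) :
    (∃ z, z ∈ XU U 5) ∨
    ∃ z z', dist z z' = 1 ∧ z ∈ XU U 3 ∧ z' ∈ XU U 3 ∧
      (z ∈ XU U 4 ∨ z ∈ closure {x | DU U x}) :=
  exists_pairD_of (m := 5) (by norm_num) hU hd fun _ _ h hmin h5 hu => core5 H h hmin h5 hu

/-- no order bound -/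
theorem pair6 (H : NoFive) (H6 : NoSix) {U : Fin 6 → Set (EuclideanSpace ℝ (Fin 2))}
    (hd : Dense (⋃ i, U i))
    (hU : ∀ i, Maximal (fun W : Set (EuclideanSpace ℝ (Fin 2)) =>
      IsOpen W ∧ ∀ x ∈ W, ∀ y ∈ W, dist x y ≠ 1) (U i)) :
    ∃ z z', dist z z' = 1 ∧ z ∈ XU U 3 ∧ z' ∈ XU U 3 ∧
      (z ∈ XU U 4 ∨ z ∈ closure {x | DU U x}) := by
  rcases exists_pairD_of (m := 6) (by norm_num) hU hd fun _ _ h hmin _ hu =>
    core6 H H6 h hmin hu with ⟨z, hz⟩ | h
  · exfalso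
    have h1 := hz univ (by rw [Set.ncard_univ, Nat.card_eq_fintype_card, Fintype.card_fin])
    have h2 : (⋃ j, U j) \ ⋃ i ∈ (univ : Set (Fin 6)), U i = ∅ := by
      rw [sdiff_eq_empty]
      exact fun x hx => by
        obtain ⟨j, hj⟩ := mem_iUnion.1 hx
        exact mem_iUnion₂.2 ⟨j, mem_univ j, hj⟩
    rw [h2, closure_empty] at h1
    exact h1
  · exact h

end Vale.Agent.P032.S5.H843
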