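import Vale.Agent.P032.S5.H843.PairD

/-!
# P032: disc form with unit pairs

`exists_discU_of` : the statement in the plane for maximal families, from a theorem on irredundant
covers `Irr V T` in a disc: every closed disc of radius `R` contains a point near which no `m` of
the sets suffice, or a point near which no four of them suffice with a point at distance one near
which no three suffice, or a two-pair point.
-/

open Set Filter Topology Metric

noncomputable section

namespace Vale.Agent.P032.S5.H843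

open Vale.Agent.P032.Six Vale.Agent.P032.S5.H926

/-- **The frame, disc form with unit pairs.** -/
theorem exists_T_discU {U : Fin 6 → Set ℂ}
    (hU : ∀ i, Maximal (fun W : Set ℂ => IsOpen W ∧ ∀ x ∈ W, ∀ y ∈ W, dist x y ≠ 1) (U i))
    (hd : Dense (⋃ i, U i)) {m : ℕ} (hm : 4 ≤ m) (hm6 : m ≤ 6) {D : Set ℂ} (hD : IsClosed D)
    (h4 : ∀ z ∈ D, z ∉ XU U m)
    (hp : ∀ z ∈ D, z ∈ XU U 4 → ∀ v ∈ XU U 3, dist z v ≠ 1) :
    ∃ T, Irr U T ∧ Mn U T ∧ (∀ z ∈ D, (T z).ncard ≤ m) ∧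
      ∀ z ∈ D, ∀ v, dist z v = 1 → 4 ≤ (T v).ncard → (T z).ncard ≤ 4 := by
  classical
  set K : Set ℂ := D ∩ XU U 4 with hK
  obtain ⟨N₅, V, hN₅, hV, hKN, hXV, hfree⟩ := exists_open_free₂ (hD.inter (isClosed_XU U 4))
    (isClosed_XU U 3) (fun z hz v hv => hp z hz.1 hz.2 v hv)
  set N : ℂ → ℕ := fun x => if x ∈ V then (if x ∈ D then (if x ∈ N₅ then m else 4) else 6) else 3
    with hNdef
  have hNs : ∀ x, ∀ᶠ w in 𝓝 x, N x ≤ N w := by
    intro x
    by_cases hx : x ∈ V
    · by_cases hxD : x ∈ D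
      · by_cases hx5 : x ∈ N₅
        · filter_upwards [hV.mem_nhds hx, hN₅.mem_nhds hx5] with w hw hw5
          simp only [hNdef, if_pos hx, if_pos hxD, if_pos hx5, if_pos hw, if_pos hw5]
          split_ifs <;> omega
        · filter_upwards [hV.mem_nhds hx] with w hw
          simp only [hNdef, if_pos hx, if_pos hxD, if_neg hx5, if_pos hw]
          split_ifs <;> omega
      · filter_upwards [hV.mem_nhds hx, hD.isOpen_compl.mem_nhds hxD] with w hw hwD
        have hwD' : w ∉ D := hwD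
        simp only [hNdef, if_pos hx, if_neg hxD, if_pos hw, if_neg hwD', le_refl]
    · filter_upwards with w
      simp only [hNdef, if_neg hx]
      split_ifs <;> omega
  have hN3 : ∀ x, 3 ≤ N x := by
    intro x
    simp only [hNdef]
    split_ifs <;> omega
  have hex : ∀ n z, z ∉ XU U n → ∃ s : Set (Fin 6), s.ncard ≤ n ∧
      ∀ᶠ w in 𝓝 z, ∃ i ∈ s, w ∈ U i ∨ (w ∈ XX U ∧ i ∈ Pal U w) := by
    intro n z hz
    simp only [XU, mem_ofPred_eq] at hz
    push Not at hz
    obtain ⟨s, hs, hsz⟩ := hz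
    exact ⟨s, hs, suf_of_notMem hd hsz⟩
  obtain ⟨T, hT, hmin, hle⟩ := exists_frameN (Mx_of_maximal hU hd)
    (fun i x hx => (mem_iff_of_maximal (hU i) x).2 hx) hNs hN3 (fun z _ => by
      by_cases hz : z ∈ V
      · by_cases hzD : z ∈ D
        · by_cases hz5 : z ∈ N₅
          · obtain ⟨s, h1, h2⟩ := hex m z (h4 z hzD)
            exact ⟨s, by simpa only [hNdef, if_pos hz, if_pos hzD, if_pos hz5] using h1, h2⟩
          · obtain ⟨s, h1, h2⟩ := hex 4 z fun h => hz5 (hKN ⟨hzD, h⟩)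
            exact ⟨s, by simpa only [hNdef, if_pos hz, if_pos hzD, if_neg hz5] using h1, h2⟩
        · refine ⟨univ, ?_, ?_⟩
          · simp only [hNdef, if_pos hz, if_neg hzD]
            exact (Set.ncard_le_card _).trans (by simp)
          · refine suf_of_notMem hd ?_
            have : (⋃ j, U j) \ ⋃ i ∈ (univ : Set (Fin 6)), U i = ∅ := by
              rw [sdiff_eq_empty]
              exact fun x hx => by
                obtain ⟨j, hj⟩ := mem_iUnion.1 hx
                exact mem_iUnion₂.2 ⟨j, mem_univ j, hj⟩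
            rw [this, closure_empty]
            exact notMem_empty z
      · obtain ⟨s, h1, h2⟩ := hex 3 z fun h => hz (hXV h)
        exact ⟨s, by simpa only [hNdef, if_neg hz] using h1, h2⟩)
  have hV4 : ∀ v, 4 ≤ (T v).ncard → v ∈ V := by
    intro v hv
    by_contra hcon
    have h1 := hle v
    simp only [hNdef, if_neg hcon] at h1
    omega
  refine ⟨T, hT, hmin, fun z hz => (hle z).trans ?_, fun z hz v hzv hv => ?_⟩
  · simp only [hNdef, if_pos hz]
    split_ifs <;> omega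
  · by_contra hcon
    refine hfree z ?_ v (hV4 v hv) hzv
    by_contra hz5
    have h1 := hle z
    simp only [hNdef, if_pos hz, if_neg hz5] at h1
    split_ifs at h1 <;> omega

/-- **Statement in the plane, disc form with unit pairs.** -/
theorem exists_discU_of {R : ℝ} {m : ℕ} (hm : 4 ≤ m) (hm6 : m ≤ 6)
    {U : Fin 6 → Set (EuclideanSpace ℝ (Fin 2))}
    (hU : ∀ i, Maximal (fun W : Set (EuclideanSpace ℝ (Fin 2)) =>
      IsOpen W ∧ ∀ x ∈ W, ∀ y ∈ W, dist x y ≠ 1) (U i))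
    (hd : Dense (⋃ i, U i))
    (top : ∀ (V : Fin 6 → Set ℂ) (T : ℂ → Set (Fin 6)) (c : ℂ), Irr V T → Mn V T →
      (∀ z, dist z c ≤ R → (T z).ncard ≤ m) →
      (∀ z, dist z c ≤ R → ∀ v, dist z v = 1 → 4 ≤ (T v).ncard → (T z).ncard ≤ 4) →
      ∃ z, dist z c ≤ R ∧ ∃ a b c' d, DPt T z a b c' d) (c : EuclideanSpace ℝ (Fin 2)) :
    ∃ z, dist z c ≤ R ∧ (z ∈ XU U m ∨ (z ∈ XU U 4 ∧ ∃ z' ∈ XU U 3, dist z z' = 1) ∨ DU U z) := by
  by_contra hcon
  push Not at hcon
  let φ : ℂ ≃ₗᵢ[ℝ] EuclideanSpace ℝ (Fin 2) := Complex.orthonormalBasisOneI.repr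
  have hcl : ∀ S : Set (EuclideanSpace ℝ (Fin 2)), closure (φ ⁻¹' S) = φ ⁻¹' closure S :=
    fun S => (φ.toHomeomorph.preimage_closure S).symm
  have hdf : ∀ s : Set (Fin 6), ((⋃ j, φ ⁻¹' U j) \ ⋃ i ∈ s, φ ⁻¹' U i) =
      φ ⁻¹' ((⋃ j, U j) \ ⋃ i ∈ s, U i) := by
    intro s
    rw [preimage_sdiff, preimage_iUnion, preimage_iUnion₂]
  have hX : ∀ n z, z ∈ XU (fun i => φ ⁻¹' U i) n → φ z ∈ XU U n := by
    intro n z hz s hs
    have h1 := hz s hs
    rw [hdf, hcl] at h1
    exact h1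
  have hDU : ∀ x, DU (fun i => φ ⁻¹' U i) x → DU U (φ x) := by
    rintro x ⟨a, b, c, d, nd, hx, hs, p, q, hp, hq, h1, h2, h3, h4, h5, h6⟩
    rw [hdf, hcl] at hx h3 h6
    rw [hcl] at h1 h2 h4 h5
    refine ⟨a, b, c, d, nd, hx, fun s hs' => ?_, φ p, φ q, by rw [φ.dist_map]; exact hp,
      by rw [φ.dist_map]; exact hq, h1, h2, h3, h4, h5, h6⟩
    have h7 := hs s hs'
    rw [hdf, hcl] at h7
    exact h7
  have hφ : ∀ z, dist z (φ.symm c) ≤ R → dist (φ z) c ≤ R := by
    intro z hz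
    rw [← φ.apply_symm_apply c, φ.dist_map]
    exact hz
  obtain ⟨T, hT, hmin, hle, hu⟩ := exists_T_discU (U := fun i => φ ⁻¹' U i)
    (fun i => maximal_preimage (hU i) φ) (by
      rw [← preimage_iUnion]
      exact hd.preimage φ.toHomeomorph.isOpenMap) hm hm6
    (D := closedBall (φ.symm c) R) isClosed_closedBall
    (fun z hz h => (hcon (φ z) (hφ z hz)).1 (hX m z h))
    (fun z hz h v hv hzv => (hcon (φ z) (hφ z hz)).2.1 (hX 4 z h) (φ v) (hX 3 v hv)
      (by rw [φ.dist_map]; exact hzv))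
  obtain ⟨z, hz, a, b, c', d, hD⟩ := top _ T (φ.symm c) hT hmin (fun z hz => hle z hz)
    (fun z hz v hzv hv => hu z hz v hzv hv)
  exact (hcon (φ z) (hφ z hz)).2.2 (hDU z (DU_of_DPt hT hmin (by
    rw [← preimage_iUnion]
    exact hd.preimage φ.toHomeomorph.isOpenMap) hD))

end Vale.Agent.P032.S5.H843
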