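import Vale.Agent.P032.S5.H843.PairD

/-!
# P032: discs with a two-pair point or a point near which no four of the sets suffice

`exists_discD_of` : the statement in the plane for maximal families, from a theorem on irredundant
covers `Irr V T` with at most four colours at the points of a disc.
-/

open Set Filter Topology Metric

noncomputable section

namespace Vale.Agent.P032.S5.H843

open Vale.Agent.P032.Six Vale.Agent.P032.S5.H926

/-- **The frame, disc form.** -/
theorem exists_T_discD {U : Fin 6 → Set ℂ}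
    (hU : ∀ i, Maximal (fun W : Set ℂ => IsOpen W ∧ ∀ x ∈ W, ∀ y ∈ W, dist x y ≠ 1) (U i))
    (hd : Dense (⋃ i, U i)) {m : ℕ} (hm : 3 ≤ m) (hm6 : m ≤ 6) {D : Set ℂ} (hD : IsClosed D)
    (h4 : ∀ z ∈ D, z ∉ XU U m) :
    ∃ T, Irr U T ∧ Mn U T ∧ ∀ z ∈ D, (T z).ncard ≤ m := by
  classical
  set N : ℂ → ℕ := fun x => if x ∈ D then m else 6 with hNdef
  have hNs : ∀ x, ∀ᶠ w in 𝓝 x, N x ≤ N w := by
    intro x
    by_cases hx : x ∈ D
    · filter_upwards with w
      simp only [hNdef, if_pos hx]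
      split_ifs <;> omega
    · filter_upwards [hD.isOpen_compl.mem_nhds hx] with w hw
      have hw' : w ∉ D := hw
      simp only [hNdef, if_neg hx, if_neg hw', le_refl]
  have hN3 : ∀ x, 3 ≤ N x := by
    intro x
    simp only [hNdef]
    split_ifs <;> omega
  obtain ⟨T, hT, hmin, hle⟩ := exists_frameN (Mx_of_maximal hU hd)
    (fun i x hx => (mem_iff_of_maximal (hU i) x).2 hx) hNs hN3 (fun z _ => by
      by_cases hz : z ∈ D
      · have h5 := h4 z hz
        simp only [XU, mem_ofPred_eq] at h5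
        push Not at h5
        obtain ⟨s, hs, hsz⟩ := h5
        exact ⟨s, by simpa only [hNdef, if_pos hz] using hs, suf_of_notMem hd hsz⟩
      · refine ⟨univ, ?_, ?_⟩
        · simp only [hNdef, if_neg hz]
          exact (Set.ncard_le_card _).trans (by simp)
        · refine suf_of_notMem hd ?_
          have : (⋃ j, U j) \ ⋃ i ∈ (univ : Set (Fin 6)), U i = ∅ := by
            rw [sdiff_eq_empty]
            exact fun x hx => by
              obtain ⟨j, hj⟩ := mem_iUnion.1 hx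
              exact mem_iUnion₂.2 ⟨j, mem_univ j, hj⟩
          rw [this, closure_empty]
          exact notMem_empty z)
  refine ⟨T, hT, hmin, fun z hz => ?_⟩
  have h1 := hle z
  simpa only [hNdef, if_pos hz] using h1

/-- **Statement in the plane, disc form.** -/
theorem exists_discD_of {R : ℝ} {U : Fin 6 → Set (EuclideanSpace ℝ (Fin 2))}
    (hU : ∀ i, Maximal (fun W : Set (EuclideanSpace ℝ (Fin 2)) =>
      IsOpen W ∧ ∀ x ∈ W, ∀ y ∈ W, dist x y ≠ 1) (U i))
    (hd : Dense (⋃ i, U i))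
    (top : ∀ (V : Fin 6 → Set ℂ) (T : ℂ → Set (Fin 6)) (c : ℂ), Irr V T → Mn V T →
      (∀ z, dist z c ≤ R → (T z).ncard ≤ 4) →
      ∃ z, dist z c ≤ R ∧ ∃ a b c' d, DPt T z a b c' d) (c : EuclideanSpace ℝ (Fin 2)) :
    ∃ z, dist z c ≤ R ∧ (z ∈ XU U 4 ∨ DU U z) := by
  by_contra hcon
  push Not at hcon
  let φ : ℂ ≃ₗᵢ[ℝ] EuclideanSpace ℝ (Fin 2) := Complex.orthonormalBasisOneI.repr
  have hcl : ∀ S : Set (EuclideanSpace ℝ (Fin 2)), closure (φ ⁻¹' S) = φ ⁻¹' closure S :=
    fun S => (φ.toHomeomorph.preimage_closure S).symm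
  have hdf : ∀ s : Set (Fin 6), ((⋃ j, φ ⁻¹' U j) \ ⋃ i ∈ s, φ ⁻¹' U i) =
      φ ⁻¹' ((⋃ j, U j) \ ⋃ i ∈ s, U i) := by
    intro s
    rw [preimage_sdiff, preimage_iUnion, preimage_iUnion₂]
  have hX : ∀ n z, z ∈ XU (fun i => φ ⁻¹' U i) n → φ z ∈ XU U n := by
    intro n z hz s hs
    have h1 := hz s hs
    rw [hdf, hcl] at h1
    exact h1
  have hDU : ∀ x, DU (fun i => φ ⁻¹' U i) x → DU U (φ x) := by
    rintro x ⟨a, b, c, d, nd, hx, hs, p, q, hp, hq, h1, h2, h3, h4, h5, h6⟩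
    rw [hdf, hcl] at hx h3 h6
    rw [hcl] at h1 h2 h4 h5
    refine ⟨a, b, c, d, nd, hx, fun s hs' => ?_, φ p, φ q, by rw [φ.dist_map]; exact hp,
      by rw [φ.dist_map]; exact hq, h1, h2, h3, h4, h5, h6⟩
    have h7 := hs s hs'
    rw [hdf, hcl] at h7
    exact h7
  have hφ : ∀ z, dist z (φ.symm c) ≤ R → dist (φ z) c ≤ R := by
    intro z hz
    rw [← φ.apply_symm_apply c, φ.dist_map]
    exact hz
  obtain ⟨T, hT, hmin, hle⟩ := exists_T_discD (U := fun i => φ ⁻¹' U i)
    (fun i => maximal_preimage (hU i) φ) (by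
      rw [← preimage_iUnion]
      exact hd.preimage φ.toHomeomorph.isOpenMap) (m := 4) (by norm_num) (by norm_num)
    (D := closedBall (φ.symm c) R) isClosed_closedBall
    (fun z hz h => (hcon (φ z) (hφ z hz)).1 (hX 4 z h))
  obtain ⟨z, hz, a, b, c', d, hD⟩ := top _ T (φ.symm c) hT hmin fun z hz => hle z hz
  exact (hcon (φ z) (hφ z hz)).2 (hDU z (DU_of_DPt hT hmin (by
    rw [← preimage_iUnion]
    exact hd.preimage φ.toHomeomorph.isOpenMap) hD))

end Vale.Agent.P032.S5.H843
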