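import Vale.Agent.P032.S5.H926.Top

/-!
# P032: minimal palettes with a semicontinuous bound for the order

`exists_frameN` : `N` is a lower semicontinuous function with values at least three, near every point
`z` at most `N z` of the sets of the maximal family suffice; then there is an irredundant cover
`Irr U T` with minimal palettes and at most `N z` colours at `z`.
`exists_open_free₂` : two closed sets without unit distance between them have open neighbourhoods
without unit distance between them.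
-/

open Set Filter Topology Metric

noncomputable section

namespace Vale.Agent.P032.S5.H843

open Vale.Agent.P032.Six Vale.Agent.P032.S5.H410 Vale.Agent.P032.S5.H926

/-- **Existence with control of the order**, semicontinuous bound. -/
theorem exists_frameN {U : Fin 6 → Set ℂ} (h : Mx U)
    (hmax : ∀ i x, (∀ y ∈ closure (U i), dist x y ≠ 1) → x ∈ U i) {N : ℂ → ℕ}
    (hN : ∀ x, ∀ᶠ w in 𝓝 x, N x ≤ N w) (hN3 : ∀ x, 3 ≤ N x)
    (hsuf : ∀ z, z ∈ XX U → ∃ s : Set (Fin 6), s.ncard ≤ N z ∧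
      ∀ᶠ w in 𝓝 z, ∃ i ∈ s, w ∈ U i ∨ (w ∈ XX U ∧ i ∈ Pal U w)) :
    ∃ T, Irr U T ∧
      (∀ z, 4 ≤ (T z).ncard → ∀ s, s ⊆ T z → s ≠ T z →
        ¬ ∀ᶠ w in 𝓝 z, ∃ i ∈ s, w ∈ U i ∨ (w ∈ XX U ∧ i ∈ Pal U w)) ∧
      ∀ z, (T z).ncard ≤ N z := by
  classical
  obtain ⟨hZ, hZd⟩ := td_XX h
  set Z : Set ℂ := XX U ∩ {x | 4 ≤ (Pal U x).ncard} with hZdef
  have hKs : ∀ (s : Set (Fin 6)) x, Ks U s x ⊆ s := fun s x i hi => hi.1
  have hZn : ∀ x, x ∉ Z → (PU U x).ncard ≤ 3 := by
    intro x hx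
    by_cases hX : x ∈ XX U
    · have h1 : ¬ 4 ≤ (Pal U x).ncard := fun h4 => hx ⟨hX, h4⟩
      have h2 := Set.ncard_le_ncard (s := PU U x) (t := Pal U x) (fun i hi => hi.1)
        (Set.toFinite _)
      omega
    · exact (Set.ncard_le_ncard (t := {i | x ∈ U i}) (fun i hi => hi.2 hX)
        (Set.toFinite _)).trans (h.K0_three x)
  have hconv : ∀ (s : Set (Fin 6)) z, (∀ᶠ w in 𝓝 z, ∃ i ∈ s, w ∈ U i ∨
      (w ∈ XX U ∧ i ∈ Pal U w)) → Suff (PU U) s z := by
    intro s z hs
    filter_upwards [hs] with w hw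
    obtain ⟨i, hi, hw⟩ := hw
    exact ⟨i, hi, (suf_iff_PU i w).1 hw⟩
  have hsel : ∀ x, ∃ s : Set (Fin 6), x ∈ Z → s.ncard ≤ N x ∧ Suff (PU U) s x := by
    intro x
    by_cases hx : x ∈ Z
    · obtain ⟨s, h1, h2⟩ := hsuf x hx.1
      exact ⟨s, fun _ => ⟨h1, hconv s x h2⟩⟩
    · exact ⟨∅, fun h => absurd h hx⟩
  choose s hsel using hsel
  obtain ⟨T₁, hc₁, hn₁, hs₁, -, hT₁⟩ := glue_step (P := PU U) (K := Ks U) hKs
    (fun s i => Ks_closed U s i) (fun s x hx => Ks_good h s x hx)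
    (Z := Z) (X := ∅) hZ hZd isClosed_empty (T := Kst U)
    (isClosed_Fst U) h.Kst_nonempty (fun x i hi => ⟨Kst_sub x hi, fun hX => h.Kst_mem hX hi⟩) s
    (fun x hx => (hsel x hx.1).2) (Or.inr (by rw [sdiff_empty]; exact hZ))
    (R := fun x w => N x ≤ N w) hN
  have hT₁N : ∀ x, (T₁ x).ncard ≤ N x := by
    intro x
    rcases hT₁ x (notMem_empty x) with h1 | ⟨y, hy, h3, h2⟩
    · exact ((Set.ncard_le_ncard (hs₁ x) (Set.toFinite _)).trans (hZn x h1)).trans (hN3 x)
    · exact ((Set.ncard_le_ncard h2 (Set.toFinite _)).trans (hsel y hy.1).1).trans h3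
  obtain ⟨T, hc, hn, hs, hp, hmin, hd⟩ := exists_min_cover' (P := PU U) (K := Ks U) hKs
    (fun s i => Ks_closed U s i) (fun s x hx => Ks_good h s x hx)
    hZ hZd (n := 3) hZn (T := T₁) hc₁ hn₁ hs₁
    (R := fun x w => N x ≤ N w) hN (fun x => le_rfl) (fun x y z h1 h2 => h1.trans h2)
  refine ⟨T, ⟨h, hmax, hc, hn, fun x i hi => (hs x hi).1, fun x hX i hi => (hs x hi).2 hX, hp⟩,
    fun z hz s hsz hne hsuf => hne (hmin z hz s hsz (hconv s z hsuf)), fun z => ?_⟩
  rcases hd z with h1 | ⟨x, h1, h2⟩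
  · exact h1.trans (hN3 z)
  · exact ((Set.ncard_le_ncard h2 (Set.toFinite _)).trans (hT₁N x)).trans h1

/-- two closed sets without unit distance between them have open neighbourhoods without unit
distance between them -/
theorem exists_open_free₂ {K X : Set ℂ} (hK : IsClosed K) (hX : IsClosed X)
    (hfree : ∀ x ∈ K, ∀ y ∈ X, dist x y ≠ 1) :
    ∃ N V, IsOpen N ∧ IsOpen V ∧ K ⊆ N ∧ X ⊆ V ∧ ∀ x ∈ N, ∀ y ∈ V, dist x y ≠ 1 := by
  classical
  have hrad : ∀ A B : Set ℂ, IsClosed B → (∀ x ∈ A, ∀ y ∈ B, dist x y ≠ 1) →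
      ∀ x, ∃ r : ℝ, 0 < r ∧ (x ∈ A → ∀ y ∈ B, 4 * r ≤ |dist x y - 1|) := by
    intro A B hB hAB x
    by_cases hx : x ∈ A
    · by_cases hne : (B ∩ closedBall x 2).Nonempty
      · have hKc : IsCompact (B ∩ closedBall x 2) := (isCompact_closedBall x 2).inter_left hB
        have hcont : Continuous fun y => |dist x y - 1| := by fun_prop
        obtain ⟨y, hy, hmin⟩ := hKc.exists_isMinOn hne hcont.continuousOn
        have hpos : 0 < |dist x y - 1| := abs_pos.2 (sub_ne_zero.2 (hAB x hx y hy.1))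
        refine ⟨min (|dist x y - 1|) 1 / 4, by positivity, fun _ z hz => ?_⟩
        by_cases hz2 : dist z x ≤ 2
        · have h1 : |dist x y - 1| ≤ |dist x z - 1| := hmin ⟨hz, mem_closedBall.2 hz2⟩
          have h2 := min_le_left (|dist x y - 1|) 1
          linarith
        · push Not at hz2
          have h2 := min_le_right (|dist x y - 1|) 1
          have h3 : 1 ≤ |dist x z - 1| := by
            rw [dist_comm] at hz2
            exact le_trans (by linarith) (le_abs_self _)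
          linarith
      · refine ⟨1 / 4, by norm_num, fun _ z hz => ?_⟩
        have hz2 : ¬ dist z x ≤ 2 := fun h => hne ⟨z, hz, mem_closedBall.2 h⟩
        push Not at hz2
        have h3 : 1 ≤ |dist x z - 1| := by
          rw [dist_comm] at hz2
          exact le_trans (by linarith) (le_abs_self _)
        linarith
    · exact ⟨1, one_pos, fun h => absurd h hx⟩
  choose r hr0 hr using hrad K X hX hfree
  choose t ht0 ht using hrad X K hK (fun x hx y hy => by rw [dist_comm]; exact hfree y hy x hx)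
  refine ⟨⋃ x ∈ K, ball x (r x), ⋃ x ∈ X, ball x (t x), isOpen_biUnion fun x _ => isOpen_ball,
    isOpen_biUnion fun x _ => isOpen_ball, fun x hx => mem_iUnion₂.2 ⟨x, hx, mem_ball_self (hr0 x)⟩,
    fun x hx => mem_iUnion₂.2 ⟨x, hx, mem_ball_self (ht0 x)⟩, fun p hp q hq hpq => ?_⟩
  obtain ⟨x, hx, hpx⟩ := mem_iUnion₂.1 hp
  obtain ⟨y, hy, hqy⟩ := mem_iUnion₂.1 hq
  rw [mem_ball] at hpx hqy
  have h1 := dist_triangle4 x p q y
  have h2 := dist_triangle4 p x y q
  rw [dist_comm x p] at h1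
  rw [dist_comm y q] at h2
  have h3 := hr x hx y hy
  have h4 := ht y hy x hx
  rw [dist_comm y x] at h4
  have h5 : |dist x y - 1| < r x + t y := by
    rw [abs_lt]
    constructor <;> linarith
  linarith [hr0 x, ht0 y]

end Vale.Agent.P032.S5.H843
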