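import Vale.Agent.P032.S5.H843.Hand5
import Vale.Agent.P032.S5.H138.DiscUV

/-!
# P032: frames with prescribed palettes at finitely many points

`exists_frameQ` : as `exists_frameN`; moreover at finitely many given points the colours are in
given locally sufficient sets.
`pair6a` : the statement in the plane from the theorem on clean points of six colours each of which
is in a pair of the unit circle.
-/

open Set Filter Topology Metric

noncomputable section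

namespace Vale.Agent.P032.S5.H843

open Vale.Agent.P032.Six Vale.Agent.P032.S5.H410 Vale.Agent.P032.S5.H926

section gen

variable {ι : Type*} [Finite ι]

/-- one step of the minimization -/
theorem min_stepZ {P : ℂ → Set ι} {K : Set ι → ℂ → Set ι}
    (hKs : ∀ s x, K s x ⊆ s) (hKc : ∀ s i, IsClosed {x | i ∈ K s x})
    (hK : ∀ s x, (∃ i ∈ s, i ∈ P x) → (K s x).Nonempty ∧ K s x ⊆ P x)
    {Z : Set ℂ} (hZ : IsClosed Z) (hZd : IsTotallyDisconnected Z) {n n₀ : ℕ} (hn₀ : n₀ ≤ n)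
    (hZn : ∀ x, x ∉ Z → (P x).ncard ≤ n₀)
    {T : ℂ → Set ι} (hc : ∀ i, IsClosed {x | i ∈ T x}) (hn : ∀ x, (T x).Nonempty)
    (hs : ∀ x, T x ⊆ P x) (hT : ∀ x, (T x).ncard ≤ n + 1 ∨ MinAt P (T x) x) {R : ℂ → ℂ → Prop}
    (hR : ∀ x, ∀ᶠ w in 𝓝 x, R x w) (hRr : ∀ x, R x x) :
    ∃ T' : ℂ → Set ι, (∀ i, IsClosed {x | i ∈ T' x}) ∧ (∀ x, (T' x).Nonempty) ∧
      (∀ x, T' x ⊆ P x) ∧ (∀ x, (T' x).ncard ≤ n ∨ MinAt P (T' x) x) ∧
      ∀ w ∈ Z, ∃ x ∈ Z, R x w ∧ T' w ⊆ T x := by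
  classical
  set X : Set ℂ := {x | n + 1 ≤ (T x).ncard ∧ MinAt P (T x) x} with hX
  have hXc : IsClosed X := by
    rw [← isOpen_compl_iff, isOpen_iff_mem_nhds]
    intro x hx
    by_cases h1 : (T x).ncard ≤ n
    · filter_upwards [nhd_of_closed hc x] with w hw hwX
      have h2 := Set.ncard_le_ncard hw (Set.toFinite _)
      have h3 := hwX.1
      omega
    · have h2 : ¬ MinAt P (T x) x := fun h3 => hx ⟨by omega, h3⟩
      have h4 : (T x).ncard ≤ n + 1 := (hT x).resolve_right h2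
      unfold MinAt at h2
      push Not at h2
      obtain ⟨s, hsT, hsuf, hne⟩ := h2
      filter_upwards [nhd_of_closed hc x, hsuf.nhd] with w hw hw' hwX
      have h5 : T w = T x := Set.eq_of_subset_of_ncard_le hw (h4.trans hwX.1) (Set.toFinite _)
      exact hne ((hwX.2 s (by rw [h5]; exact hsT) hw').trans h5)
  -- a sufficient palette with at most `n` colours off `X`
  have hsel : ∀ x, ∃ s : Set ι, x ∉ X → s ⊆ T x ∧ s.ncard ≤ n ∧ Suff P s x := by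
    intro x
    by_cases h1 : (T x).ncard ≤ n
    · exact ⟨T x, fun _ => ⟨Subset.rfl, h1, suff_self hc hn hs x⟩⟩
    · by_cases h2 : MinAt P (T x) x
      · exact ⟨∅, fun hx => absurd ⟨by omega, h2⟩ hx⟩
      · have h4 : (T x).ncard ≤ n + 1 := (hT x).resolve_right h2
        unfold MinAt at h2
        push Not at h2
        obtain ⟨s, hsT, hsuf, hne⟩ := h2
        have h5 := Set.ncard_lt_ncard (hsT.ssubset_of_ne hne) (Set.toFinite _)
        exact ⟨s, fun _ => ⟨hsT, by omega, hsuf⟩⟩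
  choose s hsel using hsel
  obtain ⟨T', hT'c, hT'n, hT's, hT'X, hT'⟩ := glue_step hKs hKc hK hZ hZd hXc hc hn hs s
    (fun x hx => (hsel x hx.2).2.2) (Or.inl fun x hx => (hsel x hx.2).1) hR
  refine ⟨T', hT'c, hT'n, hT's, fun w => ?_, fun w hwZ => ?_⟩
  · by_cases hwX : w ∈ X
    · right
      have h1 : T' w = T w := hwX.2 (T' w) (hT'X w hwX) (suff_self hT'c hT'n hT's w)
      rw [h1]
      exact hwX.2
    · left
      rcases hT' w hwX with h1 | ⟨x, hx, -, h2⟩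
      · exact ((Set.ncard_le_ncard (hT's w) (Set.toFinite _)).trans (hZn w h1)).trans hn₀
      · exact (Set.ncard_le_ncard h2 (Set.toFinite _)).trans (hsel x hx.2).2.1
  · by_cases hwX : w ∈ X
    · exact ⟨w, hwZ, hRr w, hT'X w hwX⟩
    · rcases hT' w hwX with h1 | ⟨x, hx, h3, h2⟩
      · exact absurd hwZ h1
      · exact ⟨x, hx.1, h3, h2.trans (hsel x hx.2).1⟩

/-- **minimal covers with control on a totally disconnected set** -/
theorem exists_min_coverZ {P : ℂ → Set ι} {K : Set ι → ℂ → Set ι}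
    (hKs : ∀ s x, K s x ⊆ s) (hKc : ∀ s i, IsClosed {x | i ∈ K s x})
    (hK : ∀ s x, (∃ i ∈ s, i ∈ P x) → (K s x).Nonempty ∧ K s x ⊆ P x)
    {Z : Set ℂ} (hZ : IsClosed Z) (hZd : IsTotallyDisconnected Z) {n : ℕ}
    (hZn : ∀ x, x ∉ Z → (P x).ncard ≤ n)
    {T : ℂ → Set ι} (hc : ∀ i, IsClosed {x | i ∈ T x}) (hn : ∀ x, (T x).Nonempty)
    (hs : ∀ x, T x ⊆ P x) {R : ℂ → ℂ → Prop}
    (hR : ∀ x, ∀ᶠ w in 𝓝 x, R x w) (hRr : ∀ x, R x x)
    (hRt : ∀ x y z, R x y → R y z → R x z) :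
    ∃ T' : ℂ → Set ι, (∀ i, IsClosed {x | i ∈ T' x}) ∧ (∀ x, (T' x).Nonempty) ∧
      (∀ x, T' x ⊆ P x) ∧ (∀ x, ∀ i ∈ T' x, ∃ᶠ w in 𝓝 x, T' w = {i}) ∧
        (∀ x, n < (T' x).ncard → MinAt P (T' x) x) ∧
        ∀ w ∈ Z, ∃ x ∈ Z, R x w ∧ T' w ⊆ T x := by
  classical
  have key : ∀ m : ℕ, ∃ T' : ℂ → Set ι, (∀ i, IsClosed {x | i ∈ T' x}) ∧
      (∀ x, (T' x).Nonempty) ∧ (∀ x, T' x ⊆ P x) ∧
      (∀ x, (T' x).ncard ≤ n + (Nat.card ι - m) ∨ MinAt P (T' x) x) ∧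
      ∀ w ∈ Z, ∃ x ∈ Z, R x w ∧ T' w ⊆ T x := by
    intro m
    induction m with
    | zero =>
      refine ⟨T, hc, hn, hs, fun x => Or.inl ?_, fun w hw => ⟨w, hw, hRr w, Subset.rfl⟩⟩
      have h1 := Set.ncard_le_card (T x)
      omega
    | succ m ih =>
      obtain ⟨T', hc', hn', hs', hT', hd'⟩ := ih
      by_cases hm : Nat.card ι ≤ m
      · refine ⟨T', hc', hn', hs', fun x => ?_, hd'⟩
        rcases hT' x with h1 | h1
        · left; omega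
        · exact Or.inr h1
      · obtain ⟨T'', hc'', hn'', hs'', hT'', hd''⟩ := min_stepZ hKs hKc hK hZ hZd
          (n := n + (Nat.card ι - (m + 1))) (n₀ := n) (by omega) hZn hc' hn' hs' (fun x => by
          rcases hT' x with h1 | h1
          · left; omega
          · exact Or.inr h1) hR hRr
        refine ⟨T'', hc'', hn'', hs'', hT'', fun w hw => ?_⟩
        obtain ⟨x, hx, h1, h2⟩ := hd'' w hw
        obtain ⟨y, hy, h3, h4⟩ := hd' x hx
        exact ⟨y, hy, hRt y x w h3 h1, h2.trans h4⟩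
  obtain ⟨T₁, hc₁, hn₁, hs₁, hT₁, hd₁⟩ := key (Nat.card ι)
  obtain ⟨T', hc', hn', hs', hp⟩ := exists_pure T₁ hc₁ hn₁
  have hsP : ∀ x, T' x ⊆ P x := fun x => (hs' x).trans (hs₁ x)
  refine ⟨T', hc', hn', hsP, hp, fun x hx => ?_, fun w hw => ?_⟩
  · have h1 : MinAt P (T₁ x) x := by
      refine (hT₁ x).resolve_left fun h2 => ?_
      have h3 := Set.ncard_le_ncard (hs' x) (Set.toFinite _)
      omega
    have h2 : T' x = T₁ x := h1 (T' x) (hs' x) (suff_self hc' hn' hsP x)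
    rw [h2]
    exact h1
  · obtain ⟨x, hx, h1, h2⟩ := hd₁ w hw
    exact ⟨x, hx, h1, (hs' w).trans h2⟩

omit [Finite ι] in
/-- a closed totally disconnected set together with finitely many points -/
theorem td_union_finite {Z Q : Set ℂ} (hZ : IsClosed Z) (hZd : IsTotallyDisconnected Z)
    (hQ : Q.Finite) : IsTotallyDisconnected (Z ∪ Q) := by
  intro t ht htp
  by_cases htZ : t ⊆ Z
  · exact hZd t htZ htp
  · obtain ⟨q, hqt, hqZ⟩ := not_subset.1 htZ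
    have hF : IsClosed (Z ∪ (Q \ {q})) := hZ.union (hQ.subset sdiff_subset).isClosed
    have hqF : q ∉ Z ∪ (Q \ {q}) := fun h => h.elim hqZ fun h => h.2 rfl
    have hsub : ∀ x ∈ t, x = q ∨ x ∈ Z ∪ (Q \ {q}) := by
      intro x hx
      by_cases hxq : x = q
      · exact Or.inl hxq
      · exact Or.inr ((ht hx).imp id fun h => ⟨h, hxq⟩)
    have hall : ∀ x ∈ t, x = q := by
      intro x hx
      by_contra hxq
      have hx' : x ∈ Z ∪ (Q \ {q}) := (hsub x hx).resolve_left hxq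
      obtain ⟨y, hy, hy1, hy2⟩ := isPreconnected_closed_iff.1 htp {q} (Z ∪ (Q \ {q}))
        isClosed_singleton hF (fun y hy => hsub y hy) ⟨q, hqt, rfl⟩ ⟨x, hx, hx'⟩
      rw [mem_singleton_iff] at hy1
      rw [hy1] at hy2
      exact hqF hy2
    exact fun x hx y hy => (hall x hx).trans (hall y hy).symm

end gen

/-- **Existence with control of the order and prescribed palettes at finitely many points.** -/
theorem exists_frameQ {U : Fin 6 → Set ℂ} (h : Mx U)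
    (hmax : ∀ i x, (∀ y ∈ closure (U i), dist x y ≠ 1) → x ∈ U i) {N : ℂ → ℕ}
    (hN : ∀ x, ∀ᶠ w in 𝓝 x, N x ≤ N w) (hN3 : ∀ x, 3 ≤ N x)
    (hsuf : ∀ z, z ∈ XX U → ∃ s : Set (Fin 6), s.ncard ≤ N z ∧
      ∀ᶠ w in 𝓝 z, ∃ i ∈ s, w ∈ U i ∨ (w ∈ XX U ∧ i ∈ Pal U w))
    {Q : Set ℂ} (hQ : Q.Finite) {S : ℂ → Set (Fin 6)} (hS : ∀ q ∈ Q, (S q).ncard ≤ N q ∧
      ∀ᶠ w in 𝓝 q, ∃ i ∈ S q, w ∈ U i ∨ (w ∈ XX U ∧ i ∈ Pal U w)) :
    ∃ T, Irr U T ∧
      (∀ z, 4 ≤ (T z).ncard → ∀ s, s ⊆ T z → s ≠ T z →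
        ¬ ∀ᶠ w in 𝓝 z, ∃ i ∈ s, w ∈ U i ∨ (w ∈ XX U ∧ i ∈ Pal U w)) ∧
      (∀ z, (T z).ncard ≤ N z) ∧ ∀ q ∈ Q, T q ⊆ S q := by
  classical
  obtain ⟨hZ₀, hZd₀⟩ := td_XX h
  set Z : Set ℂ := (XX U ∩ {x | 4 ≤ (Pal U x).ncard}) ∪ Q with hZdef
  have hZ : IsClosed Z := hZ₀.union hQ.isClosed
  have hZd : IsTotallyDisconnected Z := td_union_finite hZ₀ hZd₀ hQ
  have hKs : ∀ (s : Set (Fin 6)) x, Ks U s x ⊆ s := fun s x i hi => hi.1
  have hZn : ∀ x, x ∉ Z → (PU U x).ncard ≤ 3 := by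
    intro x hx
    by_cases hX : x ∈ XX U
    · have h1 : ¬ 4 ≤ (Pal U x).ncard := fun h4 => hx (Or.inl ⟨hX, h4⟩)
      have h2 := Set.ncard_le_ncard (s := PU U x) (t := Pal U x) (fun i hi => hi.1)
        (Set.toFinite _)
      omega
    · exact (Set.ncard_le_ncard (t := {i | x ∈ U i}) (fun i hi => hi.2 hX)
        (Set.toFinite _)).trans (h.K0_three x)
  have hconv : ∀ (s : Set (Fin 6)) z, (∀ᶠ w in 𝓝 z, ∃ i ∈ s, w ∈ U i ∨
      (w ∈ XX U ∧ i ∈ Pal U w)) → Suff (PU U) s z := by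
    intro s z hs
    filter_upwards [hs] with w hw
    obtain ⟨i, hi, hw⟩ := hw
    exact ⟨i, hi, (suf_iff_PU i w).1 hw⟩
  have hsel : ∀ x, ∃ s : Set (Fin 6), x ∈ Z → s.ncard ≤ N x ∧ Suff (PU U) s x ∧
      (x ∈ Q → s = S x) := by
    intro x
    by_cases hxQ : x ∈ Q
    · exact ⟨S x, fun _ => ⟨(hS x hxQ).1, hconv _ x (hS x hxQ).2, fun _ => rfl⟩⟩
    · by_cases hx : x ∈ Z
      · obtain ⟨s, h1, h2⟩ := hsuf x (hx.resolve_right hxQ).1
        exact ⟨s, fun _ => ⟨h1, hconv s x h2, fun h => absurd h hxQ⟩⟩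
      · exact ⟨∅, fun h => absurd h hx⟩
  choose s hsel using hsel
  have hR : ∀ x, ∀ᶠ w in 𝓝 x, N x ≤ N w ∧ (w ∈ Q → x = w) := by
    intro x
    have h1 : ∀ᶠ w in 𝓝 x, w ∈ (Q \ {x})ᶜ :=
      (hQ.subset sdiff_subset).isClosed.isOpen_compl.mem_nhds fun h => h.2 rfl
    filter_upwards [hN x, h1] with w hw hw'
    refine ⟨hw, fun hwQ => ?_⟩
    by_contra hne
    exact hw' ⟨hwQ, fun h => hne (mem_singleton_iff.1 h).symm⟩
  obtain ⟨T₁, hc₁, hn₁, hs₁, -, hT₁⟩ := glue_step (P := PU U) (K := Ks U) hKs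
    (fun s i => Ks_closed U s i) (fun s x hx => Ks_good h s x hx)
    (Z := Z) (X := ∅) hZ hZd isClosed_empty (T := Kst U)
    (isClosed_Fst U) h.Kst_nonempty (fun x i hi => ⟨Kst_sub x hi, fun hX => h.Kst_mem hX hi⟩) s
    (fun x hx => (hsel x hx.1).2.1) (Or.inr (by rw [sdiff_empty]; exact hZ))
    (R := fun x w => N x ≤ N w ∧ (w ∈ Q → x = w)) hR
  obtain ⟨T, hc, hn, hs, hp, hmin, hd⟩ := exists_min_coverZ (P := PU U) (K := Ks U) hKs
    (fun s i => Ks_closed U s i) (fun s x hx => Ks_good h s x hx)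
    hZ hZd (n := 3) hZn (T := T₁) hc₁ hn₁ hs₁
    (R := fun x w => N x ≤ N w ∧ (w ∈ Q → x = w)) hR (fun x => ⟨le_rfl, fun _ => rfl⟩)
    (fun x y z h1 h2 => ⟨h1.1.trans h2.1, fun hz => by
      have h3 := h2.2 hz
      rw [← h3] at hz ⊢
      exact h1.2 hz⟩)
  -- the palettes on `Z`
  have hTZ : ∀ w ∈ Z, ∃ y ∈ Z, (N y ≤ N w ∧ (w ∈ Q → y = w)) ∧ T w ⊆ s y := by
    intro w hw
    obtain ⟨x, hx, h1, h2⟩ := hd w hw
    rcases hT₁ x (notMem_empty x) with h3 | ⟨y, hy, h4, h5⟩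
    · exact absurd hx h3
    · refine ⟨y, hy.1, ⟨h4.1.trans h1.1, fun hwQ => ?_⟩, h2.trans h5⟩
      have h6 := h1.2 hwQ
      rw [← h6] at hwQ ⊢
      exact h4.2 hwQ
  refine ⟨T, ⟨h, hmax, hc, hn, fun x i hi => (hs x hi).1, fun x hX i hi => (hs x hi).2 hX, hp⟩,
    fun z hz s hsz hne hsuf => hne (hmin z hz s hsz (hconv s z hsuf)), fun z => ?_,
    fun q hq => ?_⟩
  · by_cases hz : z ∈ Z
    · obtain ⟨y, hy, h1, h2⟩ := hTZ z hz
      exact ((Set.ncard_le_ncard h2 (Set.toFinite _)).trans (hsel y hy).1).trans h1.1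
    · exact ((Set.ncard_le_ncard (hs z) (Set.toFinite _)).trans (hZn z hz)).trans (hN3 z)
  · obtain ⟨y, hy, h1, h2⟩ := hTZ q (Or.inr hq)
    have h3 := h1.2 hq
    rw [h3] at h2 hy
    rw [← (hsel q hy).2.2 hq]
    exact h2

end Vale.Agent.P032.S5.H843
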