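import Vale.Agent.P032.S5.H843.Final6
import Vale.Agent.P032.Words6.H229.Act

/-!
# P032: no clean point of six colours, from the theorem that each colour is in a pair of the unit
circle
-/

open Set Filter Topology Metric

noncomputable section

namespace Vale.Agent.P032.S5.H843

open Vale.Agent.P032.Six

/-- each colour of a clean point of six colours is in a pair of the unit circle -/
def NoSilent : Prop :=
  ∀ (U : Fin 6 → Set ℂ) (T : ℂ → Set (Fin 6)), Irr U T → Mn U T →
    (∀ z v, dist z v = 1 → 4 ≤ (T v).ncard →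
      (5 ≤ (T z).ncard ∨ ∃ a b c d, DPt T z a b c d) → False) →
    (∀ z, (T z).ncard ≠ 5) →
    ∀ z, (T z).ncard = 6 → (∀ y, dist y z = 1 → (T y).ncard ≤ 3) →
      ∀ i, ∃ q, dist q z = 1 ∧ i ∈ T q ∧ (T q).ncard = 2

theorem no_six_of_silent (hs : NoSilent) : NoSix :=
  fun U T h hmin hu h5 z h6 hcl =>
    Vale.Agent.P032.Words6.H229.no_six_active U T h hmin hu h5 z h6 hcl
      (hs U T h hmin hu h5 z h6 hcl)

end Vale.Agent.P032.S5.H843
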