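import Vale.Agent.P032.S5.H843.PairD
import Vale.Agent.P032.S5.H843.CoreD

/-!
# P032: the statement in the plane with the carrier theorem as a hypothesis (order bound four)
-/

open Set Filter Topology Metric

noncomputable section

namespace Vale.Agent.P032.S5.H843

open Vale.Agent.P032.Six Vale.Agent.P032.S5.H926

theorem hand4
    (hC : ∀ (V : Fin 6 → Set ℂ) (T : ℂ → Set (Fin 6)), Irr V T → Mn V T → AllHarm T → NoStar T →
      False) :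
    (∀ V : Fin 6 → Set (EuclideanSpace ℝ (Fin 2)), (∀ i, IsOpen (V i)) →
      (∀ i, ∀ x ∈ V i, ∀ y ∈ V i, dist x y ≠ 1) → Dense (⋃ i, V i) →
      ∃ U : Fin 6 → Set (EuclideanSpace ℝ (Fin 2)), (∀ i, V i ⊆ U i) ∧ Dense (⋃ i, U i) ∧
        ∀ i, Maximal (fun W : Set (EuclideanSpace ℝ (Fin 2)) =>
          IsOpen W ∧ ∀ x ∈ W, ∀ y ∈ W, dist x y ≠ 1) (U i)) ∧
    (∀ U : Fin 6 → Set (EuclideanSpace ℝ (Fin 2)), Dense (⋃ i, U i) →
      (∀ i, Maximal (fun W : Set (EuclideanSpace ℝ (Fin 2)) =>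
        IsOpen W ∧ ∀ x ∈ W, ∀ y ∈ W, dist x y ≠ 1) (U i)) →
      (∃ z, ∀ s : Set (Fin 6), s.ncard ≤ 4 → z ∈ closure ((⋃ j, U j) \ ⋃ i ∈ s, U i)) ∨
      ∃ z z', dist z z' = 1 ∧
        (∀ s : Set (Fin 6), s.ncard ≤ 3 → z ∈ closure ((⋃ j, U j) \ ⋃ i ∈ s, U i)) ∧
        (∀ s : Set (Fin 6), s.ncard ≤ 3 → z' ∈ closure ((⋃ j, U j) \ ⋃ i ∈ s, U i)) ∧
        z ∈ closure {x | ∃ a b c d : Fin 6, [a, b, c, d].Nodup ∧
          x ∉ closure ((⋃ j, U j) \ ⋃ i ∈ ({a, b, c, d} : Set (Fin 6)), U i) ∧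
          (∀ s ⊂ ({a, b, c, d} : Set (Fin 6)), x ∈ closure ((⋃ j, U j) \ ⋃ i ∈ s, U i)) ∧
          ∃ p q, dist p x = 1 ∧ dist q x = 1 ∧
            p ∈ closure (U a) ∧ p ∈ closure (U b) ∧
            p ∉ closure ((⋃ j, U j) \ ⋃ i ∈ ({a, b} : Set (Fin 6)), U i) ∧
            q ∈ closure (U c) ∧ q ∈ closure (U d) ∧
            q ∉ closure ((⋃ j, U j) \ ⋃ i ∈ ({c, d} : Set (Fin 6)), U i)}) := by
  refine ⟨fun V hV hfree hd => ?_, fun U hd hU => ?_⟩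
  · choose U hVU hU using fun i => exists_maximal_ge (hV i) (hfree i)
    exact ⟨U, hVU, hd.mono (iUnion_mono hVU), hU⟩
  · rcases exists_pairD_of (m := 4) le_rfl hU hd (fun V T h hmin h4 hu =>
        h.coreD_four hmin h4 hu (hC V T h hmin)) with ⟨z, hz⟩ | ⟨z, z', h1, h2, h3, h4⟩
    · exact Or.inl ⟨z, hz⟩
    · rcases h4 with h4 | h4
      · exact Or.inl ⟨z, h4⟩
      · exact Or.inr ⟨z, z', h1, h2, h3, h4⟩

end Vale.Agent.P032.S5.H843
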