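import Vale.Agent.P032.S5.H843.FrameQ

/-!
# P032: the statement in the plane from the theorem on clean points of six colours each of which
is in a pair of the unit circle
-/

open Set Filter Topology Metric

noncomputable section

namespace Vale.Agent.P032.S5.H843

open Vale.Agent.P032.Six Vale.Agent.P032.S5.H926 Vale.Agent.P032.S5.H138

/-- clean points with six colours, each of which is in a pair of the unit circle, are impossible,
in the world where two-pair points and points with five colours are clean -/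
def NoSixA : Prop :=
  ∀ (U : Fin 6 → Set ℂ) (T : ℂ → Set (Fin 6)), Irr U T → Mn U T →
    (∀ z v, dist z v = 1 → 4 ≤ (T v).ncard →
      (5 ≤ (T z).ncard ∨ ∃ a b c d, DPt T z a b c d) → False) →
    (∀ z, (T z).ncard ≠ 5) →
    ∀ z, (T z).ncard = 6 → (∀ y, dist y z = 1 → (T y).ncard ≤ 3) →
      (∀ i, ∃ q, dist q z = 1 ∧ i ∈ T q ∧ (T q).ncard = 2) → False

/-- near `z` no five of the sets suffice, and for one index `i` there is no point of the unit circle
about `z` near which `U i` and another one of the sets suffice -/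
def Sil {E : Type*} [PseudoMetricSpace E] (U : Fin 6 → Set E) (z : E) : Prop :=
  z ∈ XU U 5 ∧ ∃ i : Fin 6, ∀ q, dist q z = 1 → ∀ j : Fin 6,
    q ∈ closure ((⋃ k, U k) \ ⋃ k ∈ ({i, j} : Set (Fin 6)), U k)

/-- **The frame** with prescribed palettes at finitely many points. -/
theorem exists_T_pairVQ {U : Fin 6 → Set ℂ}
    (hU : ∀ i, Maximal (fun W : Set ℂ => IsOpen W ∧ ∀ x ∈ W, ∀ y ∈ W, dist x y ≠ 1) (U i))
    (hd : Dense (⋃ i, U i)) {m : ℕ} (hm : 4 ≤ m) (h4 : ∀ z, z ∉ XU U m)
    (hp : ∀ z ∈ XU U 3, z ∈ XU U 4 ∨ z ∈ closure {x | DV U x} → ∀ v ∈ XU U 3, dist z v ≠ 1)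
    {Q : Set ℂ} (hQ : Q.Finite) {S : ℂ → Set (Fin 6)} (hS : ∀ q ∈ Q, (S q).ncard ≤ 3 ∧
      q ∉ closure ((⋃ j, U j) \ ⋃ i ∈ S q, U i)) :
    ∃ T, Irr U T ∧ Mn U T ∧ (∀ z, (T z).ncard ≤ m) ∧ (∀ q ∈ Q, T q ⊆ S q) ∧
      ∀ z v, dist z v = 1 → 4 ≤ (T v).ncard →
        (5 ≤ (T z).ncard ∨ ∃ a b c d, DPt T z a b c d) → False := by
  classical
  set K : Set ℂ := XU U 3 ∩ (XU U 4 ∪ closure {x | DV U x}) with hK
  have hKc : IsClosed K := (isClosed_XU U 3).inter ((isClosed_XU U 4).union isClosed_closure)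
  obtain ⟨N₅, V, hN₅, hV, hKN, hXV, hfree⟩ := exists_open_free₂ hKc (isClosed_XU U 3)
    (fun z hz v hv => hp z hz.1 hz.2 v hv)
  set V' : Set ℂ := V ∩ (closure {x | DV U x} ∩ N₅ᶜ)ᶜ with hV'
  have hV'o : IsOpen V' := hV.inter (isClosed_closure.inter hN₅.isClosed_compl).isOpen_compl
  have hXV' : XU U 3 ⊆ V' := fun x hx => ⟨hXV hx, fun h1 => h1.2 (hKN ⟨hx, Or.inr h1.1⟩)⟩
  have hX4 : XU U 4 ⊆ N₅ := fun x hx => hKN ⟨XU_anti U (by norm_num) hx, Or.inl hx⟩
  set N : ℂ → ℕ := fun x => if x ∈ V' then (if x ∈ N₅ then m else 4) else 3 with hNdef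
  have hNs : ∀ x, ∀ᶠ w in 𝓝 x, N x ≤ N w := by
    intro x
    by_cases hx : x ∈ V'
    · by_cases hx5 : x ∈ N₅
      · filter_upwards [hV'o.mem_nhds hx, hN₅.mem_nhds hx5] with w hw hw5
        simp only [hNdef, if_pos hx, if_pos hx5, if_pos hw, if_pos hw5, le_refl]
      · filter_upwards [hV'o.mem_nhds hx] with w hw
        simp only [hNdef, if_pos hx, if_neg hx5, if_pos hw]
        split_ifs <;> omega
    · filter_upwards with w
      simp only [hNdef, if_neg hx]
      split_ifs <;> omega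
  have hN3 : ∀ x, 3 ≤ N x := by
    intro x
    simp only [hNdef]
    split_ifs <;> omega
  have hex : ∀ n z, z ∉ XU U n → ∃ s : Set (Fin 6), s.ncard ≤ n ∧
      ∀ᶠ w in 𝓝 z, ∃ i ∈ s, w ∈ U i ∨ (w ∈ XX U ∧ i ∈ Pal U w) := by
    intro n z hz
    simp only [XU, mem_ofPred_eq] at hz
    push Not at hz
    obtain ⟨s, hs, hsz⟩ := hz
    exact ⟨s, hs, suf_of_notMem hd hsz⟩
  obtain ⟨T, hT, hmin, hle, hTQ⟩ := exists_frameQ (Mx_of_maximal hU hd)
    (fun i x hx => (mem_iff_of_maximal (hU i) x).2 hx) hNs hN3 (fun z _ => by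
      by_cases hz : z ∈ V'
      · by_cases hz5 : z ∈ N₅
        · obtain ⟨s, h1, h2⟩ := hex m z (h4 z)
          exact ⟨s, by simpa only [hNdef, if_pos hz, if_pos hz5] using h1, h2⟩
        · obtain ⟨s, h1, h2⟩ := hex 4 z fun h => hz5 (hX4 h)
          exact ⟨s, by simpa only [hNdef, if_pos hz, if_neg hz5] using h1, h2⟩
      · obtain ⟨s, h1, h2⟩ := hex 3 z fun h => hz (hXV' h)
        exact ⟨s, by simpa only [hNdef, if_neg hz] using h1, h2⟩) hQ (S := S)
    (fun q hq => ⟨(hS q hq).1.trans (hN3 q), suf_of_notMem hd (hS q hq).2⟩)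
  have hV4 : ∀ v, 4 ≤ (T v).ncard → v ∈ V' := by
    intro v hv
    by_contra hcon
    have h1 := hle v
    simp only [hNdef, if_neg hcon] at h1
    omega
  refine ⟨T, hT, hmin, fun z => (hle z).trans ?_, hTQ, fun z v hzv hv hz => ?_⟩
  · simp only [hNdef]
    split_ifs <;> omega
  · refine hfree z ?_ v (hV4 v hv).1 hzv
    rcases hz with h5 | ⟨a, b, c, d, hz⟩
    · by_contra hcon
      have h1 := hle z
      simp only [hNdef, if_neg hcon] at h1
      split_ifs at h1 <;> omega
    · have h6 : z ∈ V' := hV4 z (ncard_DPt hz)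
      by_contra hcon
      exact h6.2 ⟨subset_closure (DV_of_DPt hT hmin hd hz), hcon⟩

theorem univ_of_XU {U : Fin 6 → Set ℂ} {T : ℂ → Set (Fin 6)} (h : Irr U T) {z : ℂ}
    (hz : z ∈ XU U 5) : (T z).ncard = 6 := by
  have h1 := Set.ncard_le_ncard (s := T z) (t := univ) (subset_univ _) (Set.toFinite _)
  rw [Set.ncard_univ, Nat.card_eq_fintype_card, Fintype.card_fin] at h1
  by_contra hcon
  exact Irr_suff h z (hz (T z) (by omega))

/-- a point of the unit circle about a point with all colours has at least two colours -/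
theorem two_le6 {U : Fin 6 → Set ℂ} {T : ℂ → Set (Fin 6)} (h : Irr U T) {z : ℂ}
    (hz : (T z).ncard = 6) {y : ℂ} (hy : dist y z = 1) : 2 ≤ (T y).ncard := by
  by_contra h2
  obtain ⟨i, hi⟩ := h.ne y
  have h1 : T y ⊆ {i} := fun m hm => (Set.ncard_le_one (Set.toFinite _)).1 (by omega) m hm i hi
  have hT : T z = univ := by
    refine (Set.eq_univ_iff_ncard (T z)).2 ?_
    rw [hz, Nat.card_eq_fintype_card, Fintype.card_fin]
  refine h.mx.notMem' (h.mem_of_single h1) hy (h.sub z ?_)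
  rw [hT]
  exact mem_univ i

/-- the points of an open set on a circle are infinitely many -/
theorem infinite_circle {z q : ℂ} (hq : dist q z = 1) {G : Set ℂ} (hG : IsOpen G) (hqG : q ∈ G) :
    {p | dist p z = 1 ∧ p ∈ G}.Infinite := by
  have hc : Continuous fun t : ℝ => z + (q - z) * Complex.exp (t * Complex.I) := by fun_prop
  have h0 : (fun t : ℝ => z + (q - z) * Complex.exp (t * Complex.I)) ⁻¹' G ∈ 𝓝 (0 : ℝ) := by
    refine hc.continuousAt.preimage_mem_nhds (hG.mem_nhds ?_)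
    simpa using hqG
  obtain ⟨ε, hε, hball⟩ := Metric.mem_nhds_iff.1 h0
  have hinj : InjOn (fun t : ℝ => z + (q - z) * Complex.exp (t * Complex.I))
      (Ioo 0 (min ε 1)) := by
    intro s hs t ht hst
    simp only [add_right_inj] at hst
    have hqz : q - z ≠ 0 := by
      intro h
      rw [dist_eq_norm, h, norm_zero] at hq
      exact zero_ne_one hq
    have h1 := mul_left_cancel₀ hqz hst
    have hp := Real.pi_gt_three
    have h2 := min_le_right ε 1
    have h3 := Complex.exp_inj_of_neg_pi_lt_of_le_pi (x := s * Complex.I) (y := t * Complex.I)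
      (by simp; linarith [hs.1]) (by simp; linarith [hs.2]) (by simp; linarith [ht.1])
      (by simp; linarith [ht.2]) h1
    have h4 := mul_right_cancel₀ Complex.I_ne_zero h3
    exact_mod_cast h4
  have hinf : (Ioo 0 (min ε 1)).Infinite := Ioo_infinite (lt_min hε one_pos)
  refine (hinf.image hinj).mono ?_
  rintro _ ⟨t, ht, rfl⟩
  refine ⟨?_, hball ?_⟩
  · rw [dist_eq_norm] at hq ⊢
    rw [add_sub_cancel_left, norm_mul, hq, Complex.norm_exp_ofReal_mul_I, one_mul]
  · rw [mem_ball, dist_zero_right, Real.norm_eq_abs, abs_of_pos ht.1]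
    exact ht.2.trans_le (min_le_left _ _)

/-- infinite sets have distinct representatives -/
theorem exists_distinct {α : Type*} (A : Fin 6 → Set α) (hA : ∀ i, (A i).Infinite) :
    ∃ f : Fin 6 → α, (∀ i, f i ∈ A i) ∧ Function.Injective f := by
  classical
  have key : ∀ s : Finset (Fin 6), ∃ f : Fin 6 → α, (∀ i ∈ s, f i ∈ A i) ∧
      Set.InjOn f (s : Set (Fin 6)) := by
    intro s
    induction s using Finset.induction with
    | empty => exact ⟨fun i => (hA i).nonempty.some, by simp, by simp⟩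
    | insert a s ha ih =>
      obtain ⟨f, hf, hi⟩ := ih
      obtain ⟨x, hx, hxn⟩ := ((hA a).sdiff (s.finite_toSet.image f)).nonempty
      refine ⟨Function.update f a x, fun i hi => ?_, fun i hi' j hj hij => ?_⟩
      · by_cases hia : i = a
        · rw [hia, Function.update_self]
          exact hx
        · rw [Function.update_of_ne hia]
          exact hf i ((Finset.mem_insert.1 hi).resolve_left hia)
      · have h1 := Finset.mem_insert.1 (Finset.mem_coe.1 hi')
        have h2 := Finset.mem_insert.1 (Finset.mem_coe.1 hj)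
        by_cases hia : i = a
        · by_cases hja : j = a
          · rw [hia, hja]
          · exfalso
            rw [hia, Function.update_self, Function.update_of_ne hja] at hij
            exact hxn ⟨j, h2.resolve_left hja, hij.symm⟩
        · by_cases hja : j = a
          · exfalso
            rw [hja, Function.update_self, Function.update_of_ne hia] at hij
            exact hxn ⟨i, h1.resolve_left hia, hij⟩
          · rw [Function.update_of_ne hia, Function.update_of_ne hja] at hij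
            exact hi (h1.resolve_left hia) (h2.resolve_left hja) hij
  obtain ⟨f, hf, hi⟩ := key Finset.univ
  exact ⟨f, fun i => hf i (Finset.mem_univ i), fun i j hij => hi (by simp) (by simp) hij⟩

/-- no order bound, with the alternative `Sil` -/
theorem pair6a (H : NoFive) (H6 : NoSixA) {U : Fin 6 → Set (EuclideanSpace ℝ (Fin 2))}
    (hd : Dense (⋃ i, U i))
    (hU : ∀ i, Maximal (fun W : Set (EuclideanSpace ℝ (Fin 2)) =>
      IsOpen W ∧ ∀ x ∈ W, ∀ y ∈ W, dist x y ≠ 1) (U i)) :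
    (∃ z, Sil U z) ∨
    ∃ z z', dist z z' = 1 ∧ z ∈ XU U 3 ∧ z' ∈ XU U 3 ∧
      (z ∈ XU U 4 ∨ z ∈ closure {x | DV U x}) := by
  rcases exists_pairV_of (m := 5) (by norm_num) hU hd fun _ _ h hmin h5 hu =>
    core5 H h hmin h5 hu with ⟨z₀, hz₀⟩ | h
  swap
  · exact Or.inr h
  by_contra hcon
  rw [not_or] at hcon
  have hd' : Dense (⋃ i, φ ⁻¹' U i) := by
    rw [← preimage_iUnion]
    exact hd.preimage φ.toHomeomorph.isOpenMap
  obtain ⟨z, rfl⟩ := φ.surjective z₀
  -- transfer of `XU` to the complex plane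
  have hzX : z ∈ XU (fun i => φ ⁻¹' U i) 5 := by
    intro s hs
    rw [hdf, hcl]
    exact hz₀ s hs
  have hS : ∀ i : Fin 6, ∃ q j, dist q z = 1 ∧
      q ∉ closure ((⋃ k, φ ⁻¹' U k) \ ⋃ k ∈ ({i, j} : Set (Fin 6)), φ ⁻¹' U k) := by
    intro i
    by_contra hc
    push Not at hc
    refine hcon.1 ⟨φ z, hz₀, i, fun q hq j => ?_⟩
    obtain ⟨q, rfl⟩ := φ.surjective q
    rw [φ.dist_map] at hq
    have h1 := hc q j hq
    rw [hdf, hcl] at h1
    exact h1
  choose q₀ j hq₀ hj using hS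
  obtain ⟨q, hqA, hqi⟩ := exists_distinct
    (fun i => {p | dist p z = 1 ∧
      p ∈ (closure ((⋃ k, φ ⁻¹' U k) \ ⋃ k ∈ ({i, j i} : Set (Fin 6)), φ ⁻¹' U k))ᶜ})
    (fun i => infinite_circle (hq₀ i) isClosed_closure.isOpen_compl (hj i))
  set S : ℂ → Set (Fin 6) := fun p => {k | ∃ i, q i = p ∧ (k = i ∨ k = j i)} with hSdef
  have hSq : ∀ i, S (q i) = {i, j i} := by
    intro i
    ext k
    simp only [hSdef, mem_ofPred_eq, mem_insert_iff, mem_singleton_iff]
    constructor
    · rintro ⟨i', h1, h2⟩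
      rw [hqi h1] at h2
      exact h2
    · exact fun h => ⟨i, rfl, h⟩
  have h2 : ∀ i, (S (q i)).ncard ≤ 2 := fun i => by
    rw [hSq]
    exact (Set.ncard_insert_le _ _).trans (by rw [Set.ncard_singleton])
  obtain ⟨T, h, hmin, -, hTQ, hu⟩ := exists_T_pairVQ (U := fun i => φ ⁻¹' U i)
    (fun i => maximal_preimage (hU i) φ) hd' (m := 6) (by norm_num)
    (fun z hz => by
      have h1 := hz univ (by rw [Set.ncard_univ, Nat.card_eq_fintype_card, Fintype.card_fin])
      have h2 : (⋃ j, φ ⁻¹' U j) \ ⋃ i ∈ (univ : Set (Fin 6)), φ ⁻¹' U i = ∅ := by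
        rw [sdiff_eq_empty]
        exact fun x hx => by
          obtain ⟨j, hj⟩ := mem_iUnion.1 hx
          exact mem_iUnion₂.2 ⟨j, mem_univ j, hj⟩
      rw [h2, closure_empty] at h1
      exact h1)
    (fun z hz hz' v hv hzv => hcon.2 ⟨φ z, φ v, by rw [φ.dist_map]; exact hzv, hXU 3 z hz,
      hXU 3 v hv, hz'.imp (hXU 4 z) (hcDV z)⟩)
    (Q := range q) (finite_range q) (S := S) (by
      rintro _ ⟨i, rfl⟩
      refine ⟨(h2 i).trans (by norm_num), ?_⟩
      rw [hSq]
      exact (hqA i).2)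
  have hn := no5_of H h hmin hu
  have h6 := univ_of_XU h hzX
  refine H6 _ T h hmin hu hn z h6 (fun y hy => ?_) fun i => ⟨q i, (hqA i).1, ?_⟩
  · by_contra hc'
    exact hu z y (by rw [dist_comm]; exact hy) (by omega) (Or.inl (by omega))
  · have h3 := hTQ (q i) ⟨i, rfl⟩
    have h4 := two_le6 h h6 (hqA i).1
    have h5 := h2 i
    have h7 : T (q i) = S (q i) := Set.eq_of_subset_of_ncard_le h3 (by omega) (Set.toFinite _)
    have h8 := Set.ncard_le_ncard h3 (Set.toFinite _)
    refine ⟨?_, by omega⟩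
    rw [h7, hSq]
    exact mem_insert _ _

end Vale.Agent.P032.S5.H843
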